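import Mathlib

/-!
# Integral matrices and products of cyclic groups
-/

namespace Vale.Agent.P002.R2.H238.BG

open Matrix Polynomial

section mat

variable {n : Type*} [Fintype n] [DecidableEq n]

/-- a complex matrix whose eigenvalues are algebraic integers is integral over `ℤ` -/
theorem isIntegral_matrix (M : Matrix n n ℂ)
    (h : ∀ z, M.charpoly.IsRoot z → IsIntegral ℤ z) : IsIntegral ℤ M := by
  classical
  have hs : M.charpoly.Splits := IsAlgClosed.splits _
  have hroots : ∀ z ∈ M.charpoly.roots, IsIntegral ℤ z := fun z hz =>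
    h z ((mem_roots (M.charpoly_monic.ne_zero)).1 hz)
  set P : ℤ[X] := (M.charpoly.roots.map (fun z => minpoly ℤ z)).prod with hP
  have hPm : P.Monic := by
    rw [hP]
    exact monic_multiset_prod_of_monic _ _ fun z hz => minpoly.monic (hroots z hz)
  have hdvd : M.charpoly ∣ P.map (algebraMap ℤ ℂ) := by
    have h1 : M.charpoly = (M.charpoly.roots.map (fun z => X - C z)).prod :=
      hs.eq_prod_roots_of_monic M.charpoly_monic
    have h2 : P.map (algebraMap ℤ ℂ) =
        (M.charpoly.roots.map (fun z => (minpoly ℤ z).map (algebraMap ℤ ℂ))).prod := by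
      rw [hP, Polynomial.map_multiset_prod, Multiset.map_map]
      rfl
    rw [h2]
    conv_lhs => rw [h1]
    refine Multiset.prod_dvd_prod_of_dvd _ _ fun z _ => ?_
    rw [dvd_iff_isRoot, IsRoot.def, eval_map_algebraMap]
    exact minpoly.aeval ℤ z
  refine ⟨P, hPm, ?_⟩
  obtain ⟨Q, hQ⟩ := hdvd
  have h3 : aeval M (P.map (algebraMap ℤ ℂ)) = 0 := by
    rw [hQ, map_mul, Matrix.aeval_self_charpoly, zero_mul]
  rw [aeval_map_algebraMap] at h3
  rw [← aeval_def]
  exact h3

/-- the eigenvalues of an integral matrix are algebraic integers -/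
theorem isIntegral_root {M : Matrix n n ℂ} (hM : IsIntegral ℤ M) {z : ℂ}
    (hz : M.charpoly.IsRoot z) : IsIntegral ℤ z := by
  obtain ⟨p, hp, h0⟩ := hM
  refine ⟨p, hp, ?_⟩
  have hzs : z ∈ spectrum ℂ M := Matrix.mem_spectrum_of_isRoot_charpoly hz
  have h1 := spectrum.subset_polynomial_aeval (𝕜 := ℂ) M (p.map (algebraMap ℤ ℂ))
    (Set.mem_image_of_mem _ hzs)
  rw [aeval_map_algebraMap, aeval_def, h0, spectrum.mem_iff, sub_zero] at h1
  simp only [eval_map_algebraMap] at h1
  by_contra hne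
  rw [← aeval_def] at hne
  exact h1 ((IsUnit.mk0 _ hne).map (algebraMap ℂ (Matrix n n ℂ)))

theorem isIntegral_trace {M : Matrix n n ℂ} (hM : IsIntegral ℤ M) : IsIntegral ℤ M.trace := by
  rw [Matrix.trace_eq_sum_roots_charpoly]
  exact IsIntegral.multiset_sum fun z hz =>
    isIntegral_root hM ((mem_roots (M.charpoly_monic.ne_zero)).1 hz)

end mat

section ring

variable {A : Type*} [Ring A]

/-- if all powers of `x` lie in a finitely generated `ℤ`-module then `x` is integral -/
theorem isIntegral_of_pow_mem (L : Submodule ℤ A) (hL : L.FG) (x : A)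
    (hx : ∀ m : ℕ, x ^ m ∈ L) : IsIntegral ℤ x := by
  have hle : Subalgebra.toSubmodule (Algebra.adjoin ℤ {x}) ≤ L := by
    intro y hy
    rw [Subalgebra.mem_toSubmodule, Algebra.adjoin_singleton_eq_range_aeval] at hy
    obtain ⟨p, rfl⟩ := hy
    change aeval x p ∈ L
    rw [aeval_eq_sum_range]
    exact Submodule.sum_mem _ fun i _ => Submodule.smul_mem _ _ (hx i)
  have hN : IsNoetherian ℤ L := isNoetherian_of_fg_of_noetherian L hL
  have hN2 : IsNoetherian ℤ (Subalgebra.toSubmodule (Algebra.adjoin ℤ {x})) :=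
    isNoetherian_of_le hle
  exact IsIntegral.of_mem_of_fg (Algebra.adjoin ℤ {x})
    ((isNoetherian_submodule.1 hN2 _ le_rfl)) x (Algebra.self_mem_adjoin_singleton ℤ x)

/-- products of powers of integral elements lie in one finitely generated module -/
theorem exists_module : ∀ (k : ℕ) (g g' : Fin k → A), (∀ i, IsIntegral ℤ (g i)) →
    (∀ i, IsIntegral ℤ (g' i)) → ∃ L : Submodule ℤ A, L.FG ∧
      ∀ a b : Fin k → ℕ, (List.ofFn fun i => g i ^ a i * g' i ^ b i).prod ∈ L
  | 0, _, _, _, _ => by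
      refine ⟨Submodule.span ℤ {1}, Submodule.fg_span_singleton _, fun a b => ?_⟩
      simp only [List.ofFn_zero, List.prod_nil]
      exact Submodule.mem_span_singleton_self 1
  | k + 1, g, g', hg, hg' => by
      obtain ⟨L, hL, h⟩ := exists_module k (fun i => g i.succ) (fun i => g' i.succ)
        (fun i => hg _) (fun i => hg' _)
      refine ⟨(Subalgebra.toSubmodule (Algebra.adjoin ℤ {g 0}) *
        Subalgebra.toSubmodule (Algebra.adjoin ℤ {g' 0})) * L,
        ((hg 0).fg_adjoin_singleton.mul (hg' 0).fg_adjoin_singleton).mul hL, fun a b => ?_⟩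
      rw [List.ofFn_succ, List.prod_cons]
      exact Submodule.mul_mem_mul (Submodule.mul_mem_mul
        (Subalgebra.pow_mem _ (Algebra.self_mem_adjoin_singleton ℤ (g 0)) _)
        (Subalgebra.pow_mem _ (Algebra.self_mem_adjoin_singleton ℤ (g' 0)) _))
        (h (fun i => a i.succ) (fun i => b i.succ))

end ring

section grp

variable {r : ℕ}

theorem val_mul (A B : SpecialLinearGroup (Fin r) ℂ) : (A * B).1 = A.1 * B.1 := rfl

theorem val_pow (A : SpecialLinearGroup (Fin r) ℂ) (m : ℕ) : (A ^ m).1 = A.1 ^ m := by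
  induction m with
  | zero => rfl
  | succ m ih => rw [pow_succ, val_mul, ih, pow_succ]

theorem val_mul_inv (M : SpecialLinearGroup (Fin r) ℂ) : M.1 * (M⁻¹).1 = 1 := by
  rw [← val_mul, mul_inv_cancel]
  rfl

theorem val_inv_mul (M : SpecialLinearGroup (Fin r) ℂ) : (M⁻¹).1 * M.1 = 1 := by
  rw [← val_mul, inv_mul_cancel]
  rfl

/-- if `z` is an eigenvalue of the inverse then `z⁻¹` is an eigenvalue -/
theorem isRoot_inv {M : SpecialLinearGroup (Fin r) ℂ} {z : ℂ}
    (hz : (M⁻¹).1.charpoly.IsRoot z) : M.1.charpoly.IsRoot z⁻¹ := by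
  let u : (Matrix (Fin r) (Fin r) ℂ)ˣ := ⟨M.1, (M⁻¹).1, val_mul_inv M, val_inv_mul M⟩
  have hzs : z ∈ spectrum ℂ (↑u⁻¹ : Matrix (Fin r) (Fin r) ℂ) :=
    Matrix.mem_spectrum_of_isRoot_charpoly hz
  have := spectrum.inv₀_mem_iff.2 hzs
  exact Matrix.mem_spectrum_iff_isRoot_charpoly.1 this

theorem isIntegral_inv {M : SpecialLinearGroup (Fin r) ℂ}
    (hM : ∀ z, M.1.charpoly.IsRoot z → IsIntegral ℤ z) : IsIntegral ℤ (M⁻¹).1 := by
  classical
  refine isIntegral_matrix _ fun z hz => ?_
  have h1 := isRoot_inv hz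
  have h2 : z⁻¹ ∈ M.1.charpoly.roots := (mem_roots (M.1.charpoly_monic.ne_zero)).2 h1
  have h3 : M.1.det = M.1.charpoly.roots.prod := Matrix.det_eq_prod_roots_charpoly _
  rw [M.2, ← Multiset.cons_erase h2, Multiset.prod_cons] at h3
  have h4 : z⁻¹ ≠ 0 := fun h => by
    rw [h, zero_mul] at h3
    exact one_ne_zero h3
  have h5 : z = (M.1.charpoly.roots.erase z⁻¹).prod := by
    have h6 := congrArg (fun y => z * y) h3
    have hz0 : z ≠ 0 := fun h => h4 (by rw [h, _root_.inv_zero])
    simp only [mul_one] at h6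
    rw [← mul_assoc, mul_inv_cancel₀ hz0, one_mul] at h6
    exact h6
  rw [h5]
  exact IsIntegral.multiset_prod fun y hy =>
    hM y ((mem_roots (M.1.charpoly_monic.ne_zero)).1 (Multiset.mem_of_mem_erase hy))

/-- INTEGRALITY CRITERION. `N` is contained in a product of cyclic groups generated by elements
whose images have integral eigenvalues: all images of elements of `N` are integral. -/
theorem integral_of_product {G : Type*} [Group G] (f : G →* SpecialLinearGroup (Fin r) ℂ)
    {k : ℕ} (g : Fin k → G) (N : Subgroup G)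
    (hN : ∀ x ∈ N, ∃ n : Fin k → ℤ, x = (List.ofFn fun i => g i ^ n i).prod)
    (hg : ∀ i z, (f (g i)).1.charpoly.IsRoot z → IsIntegral ℤ z) (x : G) (hx : x ∈ N) :
    IsIntegral ℤ (f x).1 := by
  obtain ⟨L, hL, h⟩ := exists_module k (fun i => (f (g i)).1)
    (fun i => ((f (g i))⁻¹).1)
    (fun i => isIntegral_matrix _ (hg i)) (fun i => isIntegral_inv (hg i))
  refine isIntegral_of_pow_mem L hL _ fun m => ?_
  obtain ⟨n, hn⟩ := hN (x ^ m) (N.pow_mem hx m)
  have h1 : (f x).1 ^ m = (f (x ^ m)).1 := by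
    rw [map_pow, val_pow]
  have h2 : (f (x ^ m)).1 = (List.ofFn fun i => (f (g i)).1 ^ (n i).toNat *
      ((f (g i))⁻¹).1 ^ (-n i).toNat).prod := by
    rw [hn, map_list_prod, List.map_ofFn]
    have h3 : ∀ l : List (SpecialLinearGroup (Fin r) ℂ), l.prod.1 = (l.map (fun y => y.1)).prod := by
      intro l
      induction l with
      | nil => rfl
      | cons a l ih => rw [List.prod_cons, val_mul, ih, List.map_cons, List.prod_cons]
    rw [h3, List.map_ofFn]
    congr 2
    funext i
    simp only [Function.comp]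
    rw [map_zpow]
    have h4 : f (g i) ^ n i = f (g i) ^ (n i).toNat * (f (g i))⁻¹ ^ (-n i).toNat := by
      rcases le_total 0 (n i) with h5 | h5
      · have h6 : (-n i).toNat = 0 := Int.toNat_eq_zero.2 (by omega)
        rw [h6, pow_zero, mul_one, ← zpow_natCast, Int.toNat_of_nonneg h5]
      · have h6 : (n i).toNat = 0 := Int.toNat_eq_zero.2 (by omega)
        rw [h6, pow_zero, one_mul, inv_pow, ← zpow_natCast, Int.toNat_of_nonneg (by omega),
          _root_.zpow_neg, inv_inv]
    rw [h4, val_mul, val_pow, val_pow]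
  rw [h1, h2]
  exact h _ _

end grp

end Vale.Agent.P002.R2.H238.BG
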