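import Vale.Agent.P002.R2.H238.BGa

/-!
# Elements with quasi-unipotent image in every representation
-/

namespace Vale.Agent.P002.R2.H238.BG

open Matrix Polynomial

variable {r : ℕ}

theorem exists_vec {M : Matrix (Fin r) (Fin r) ℂ} {z : ℂ} (hz : M.charpoly.IsRoot z) :
    ∃ v : Fin r → ℂ, v ≠ 0 ∧ Matrix.toLinAlgEquiv' M v = z • v := by
  rw [IsRoot.def, Matrix.eval_charpoly] at hz
  obtain ⟨v, hv, h⟩ := Matrix.exists_mulVec_eq_zero_iff.2 hz
  refine ⟨v, hv, ?_⟩
  rw [Matrix.sub_mulVec, sub_eq_zero] at h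
  rw [Matrix.toLinAlgEquiv'_apply, ← h]
  simp [Matrix.scalar_apply]

theorem ne_zero_of_root {M : SpecialLinearGroup (Fin r) ℂ} {z : ℂ}
    (hz : M.1.charpoly.IsRoot z) : z ≠ 0 := by
  rintro rfl
  have h3 : M.1.det = M.1.charpoly.roots.prod := Matrix.det_eq_prod_roots_charpoly _
  have h2 : (0 : ℂ) ∈ M.1.charpoly.roots := (mem_roots (M.1.charpoly_monic.ne_zero)).2 hz
  rw [M.2, Multiset.prod_eq_zero h2] at h3
  exact one_ne_zero h3

/-- spectral mapping for powers -/
theorem root_pow_iff (hr : 0 < r) (M : Matrix (Fin r) (Fin r) ℂ) (a : ℕ) (z : ℂ) :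
    (M ^ a).charpoly.IsRoot z ↔ ∃ y, M.charpoly.IsRoot y ∧ y ^ a = z := by
  have : Nonempty (Fin r) := ⟨⟨0, hr⟩⟩
  have h := spectrum.map_polynomial_aeval_of_nonempty (𝕜 := ℂ) M (X ^ a)
    (spectrum.nonempty_of_isAlgClosed_of_finiteDimensional ℂ M)
  rw [map_pow, aeval_X] at h
  rw [← Matrix.mem_spectrum_iff_isRoot_charpoly, h]
  simp only [Set.mem_image, eval_pow, eval_X, Matrix.mem_spectrum_iff_isRoot_charpoly]

theorem charpoly_conj (H M : SpecialLinearGroup (Fin r) ℂ) :
    (H * M * H⁻¹).1.charpoly = M.1.charpoly := by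
  have h1 : (H * M * H⁻¹).1 = H.1 * M.1 * (H⁻¹).1 := rfl
  rw [h1, Matrix.charpoly_mul_comm, ← mul_assoc, val_inv_mul, one_mul]

theorem isIntegral_of_pow_eq_one {z : ℂ} {n : ℕ} (hn : 0 < n) (h : z ^ n = 1) :
    IsIntegral ℤ z := by
  refine IsIntegral.of_pow hn ?_
  rw [h]
  exact isIntegral_one

/-- case (a): `h g^a h⁻¹ = g^b`, `a ≠ b` -/
theorem case_a (M H : SpecialLinearGroup (Fin r) ℂ) (a b : ℕ) (hab : a ≠ b)
    (h : H * M ^ a * H⁻¹ = M ^ b) (z : ℂ) (hz : M.1.charpoly.IsRoot z) :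
    ∃ n : ℕ, 0 < n ∧ z ^ n = 1 := by
  rcases Nat.eq_zero_or_pos r with hr | hr
  · subst hr
    obtain ⟨v, hv, -⟩ := exists_vec hz
    exact absurd (Subsingleton.elim v 0) hv
  have hc : (M.1 ^ a).charpoly = (M.1 ^ b).charpoly := by
    rw [← val_pow, ← val_pow, ← h, charpoly_conj]
  have h1 : ∀ y, M.1.charpoly.IsRoot y → ∃ x, M.1.charpoly.IsRoot x ∧ x ^ b = y ^ a := by
    intro y hy
    have := (root_pow_iff hr M.1 a (y ^ a)).2 ⟨y, hy, rfl⟩
    rw [hc] at this
    exact (root_pow_iff hr M.1 b _).1 this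
  have h1' : ∀ y, M.1.charpoly.IsRoot y → ∃ x, M.1.charpoly.IsRoot x ∧ x ^ a = y ^ b := by
    intro y hy
    have := (root_pow_iff hr M.1 b (y ^ b)).2 ⟨y, hy, rfl⟩
    rw [← hc] at this
    exact (root_pow_iff hr M.1 a _).1 this
  rcases Nat.eq_zero_or_pos a with ha | ha
  · subst ha
    obtain ⟨x, -, hx⟩ := h1' z hz
    rw [pow_zero] at hx
    exact ⟨b, Nat.pos_of_ne_zero fun h => hab h.symm, hx.symm⟩
  choose! s hs hs' using h1
  let q : ℕ → ℂ := fun i => s^[i] z
  have hq : ∀ i, M.1.charpoly.IsRoot (q i) := by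
    intro i
    induction i with
    | zero => exact hz
    | succ i ih =>
      show M.1.charpoly.IsRoot (s^[i + 1] z)
      rw [Function.iterate_succ_apply']
      exact hs _ ih
  have hq1 : ∀ i, q (i + 1) ^ b = q i ^ a := by
    intro i
    show (s^[i + 1] z) ^ b = _
    rw [Function.iterate_succ_apply']
    exact hs' _ (hq i)
  have hq2 : ∀ m i, q i ^ (a ^ m) = q (i + m) ^ (b ^ m) := by
    intro m
    induction m with
    | zero => intro i; simp
    | succ m ih =>
      intro i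
      rw [pow_succ' a, pow_mul, ← hq1, ← pow_mul, mul_comm, pow_mul, ih (i + 1), ← pow_mul,
        ← pow_succ]
      congr 2
      ring
  have hfin : Set.Finite {y | M.1.charpoly.IsRoot y} := by
    have : {y | M.1.charpoly.IsRoot y} = {y | y ∈ M.1.charpoly.roots.toFinset} := by
      ext y
      simp [mem_roots M.1.charpoly_monic.ne_zero]
    rw [this]
    exact Finset.finite_toSet _
  obtain ⟨i, j, hij, hqij⟩ : ∃ i j, i < j ∧ q i = q j := by
    by_contra hcon
    push Not at hcon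
    have hinj : Function.Injective q := by
      intro i j h
      rcases lt_trichotomy i j with h1 | h1 | h1
      · exact absurd h (hcon i j h1)
      · exact h1
      · exact absurd h.symm (hcon j i h1)
    exact Set.infinite_range_of_injective hinj (hfin.subset (by rintro _ ⟨i, rfl⟩; exact hq i))
  obtain ⟨m, rfl⟩ := Nat.exists_eq_add_of_lt hij
  have h2 := hq2 (m + 1) i
  rw [show i + (m + 1) = i + m + 1 by ring, ← hqij] at h2
  have hne := ne_zero_of_root (hq i)
  have hpow : a ^ (m + 1) ≠ b ^ (m + 1) := fun h => hab (Nat.pow_left_injective (by omega) h)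
  obtain ⟨n, hn, hn1⟩ : ∃ n : ℕ, 0 < n ∧ q i ^ n = 1 := by
    rcases lt_or_gt_of_ne hpow with h3 | h3
    · refine ⟨b ^ (m + 1) - a ^ (m + 1), by omega, ?_⟩
      have h4 : q i ^ (a ^ (m + 1)) * q i ^ (b ^ (m + 1) - a ^ (m + 1)) = q i ^ (a ^ (m + 1)) := by
        rw [← pow_add, Nat.add_sub_cancel' h3.le, h2]
      exact mul_left_cancel₀ (pow_ne_zero _ hne) (by rw [h4, mul_one])
    · refine ⟨a ^ (m + 1) - b ^ (m + 1), by omega, ?_⟩
      have h4 : q i ^ (b ^ (m + 1)) * q i ^ (a ^ (m + 1) - b ^ (m + 1)) = q i ^ (b ^ (m + 1)) := by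
        rw [← pow_add, Nat.add_sub_cancel' h3.le, h2]
      exact mul_left_cancel₀ (pow_ne_zero _ hne) (by rw [h4, mul_one])
  refine ⟨a ^ i * n, Nat.mul_pos (pow_pos ha i) hn, ?_⟩
  have h5 := hq2 i 0
  rw [zero_add] at h5
  have h6 : q 0 = z := rfl
  rw [h6] at h5
  rw [pow_mul, h5, ← pow_mul, mul_comm, pow_mul, hn1, one_pow]

/-- case (b): `g^n = x y x⁻¹ y⁻¹` with `x`, `y` commuting with `g` -/
theorem case_b (M U V : SpecialLinearGroup (Fin r) ℂ) (n : ℕ) (hn : 0 < n)
    (hU : U * M = M * U) (hV : V * M = M * V) (h : M ^ n = U * V * U⁻¹ * V⁻¹) (z : ℂ)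
    (hz : M.1.charpoly.IsRoot z) : ∃ m : ℕ, 0 < m ∧ z ^ m = 1 := by
  obtain ⟨v, hv, hvz⟩ := exists_vec hz
  set T := Matrix.toLinAlgEquiv' M.1 with hT
  set A := Matrix.toLinAlgEquiv' U.1 with hA
  set B := Matrix.toLinAlgEquiv' V.1 with hB
  have hTA : A * T = T * A := by
    rw [hA, hT, ← map_mul, ← map_mul, ← val_mul, hU, val_mul]
  have hTB : B * T = T * B := by
    rw [hB, hT, ← map_mul, ← map_mul, ← val_mul, hV, val_mul]
  have hAB : A * B = T ^ n * (B * A) := by
    have h1 : U * V = M ^ n * (V * U) := by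
      rw [h]
      group
    rw [hA, hB, hT, ← map_pow, ← map_mul, ← map_mul, ← map_mul, ← val_mul, ← val_mul,
      ← val_pow, ← val_mul, h1]
  let W : Submodule ℂ (Fin r → ℂ) := LinearMap.ker (T - z • (1 : Module.End ℂ (Fin r → ℂ)))
  have hW : ∀ x, x ∈ W ↔ T x = z • x := by
    intro x
    simp [W, sub_eq_zero]
  have hmap : ∀ S : Module.End ℂ (Fin r → ℂ), S * T = T * S → ∀ x ∈ W, S x ∈ W := by
    intro S hS x hx
    rw [hW] at hx ⊢
    have : T (S x) = S (T x) := by
      rw [← Module.End.mul_apply, ← hS, Module.End.mul_apply]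
    rw [this, hx, map_smul]
  have hpow : ∀ (i : ℕ), ∀ x ∈ W, (T ^ i) x = z ^ i • x := by
    intro i
    induction i with
    | zero => intro x _; simp
    | succ i ih =>
      intro x hx
      rw [pow_succ, Module.End.mul_apply, (hW x).1 hx, map_smul, ih x hx, smul_smul, pow_succ,
        mul_comm]
  have hAinj : Function.Injective A := by
    have h1 : Matrix.toLinAlgEquiv' (U⁻¹).1 * A = 1 := by
      rw [hA, ← map_mul, val_inv_mul, map_one]
    intro x y hxy
    have := congrArg (Matrix.toLinAlgEquiv' (U⁻¹).1) hxy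
    rw [← Module.End.mul_apply, ← Module.End.mul_apply, h1] at this
    exact this
  have hBinj : Function.Injective B := by
    have h1 : Matrix.toLinAlgEquiv' (V⁻¹).1 * B = 1 := by
      rw [hB, ← map_mul, val_inv_mul, map_one]
    intro x y hxy
    have := congrArg (Matrix.toLinAlgEquiv' (V⁻¹).1) hxy
    rw [← Module.End.mul_apply, ← Module.End.mul_apply, h1] at this
    exact this
  let A' := A.restrict (hmap A hTA)
  let B' := B.restrict (hmap B hTB)
  have hAB' : A' * B' = z ^ n • (B' * A') := by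
    ext x
    have h1 : (A * B) x.1 = (T ^ n * (B * A)) x.1 := by rw [hAB]
    rw [Module.End.mul_apply, Module.End.mul_apply, hpow n _ (hmap _
      (by rw [mul_assoc, hTA, ← mul_assoc, hTB, mul_assoc]) x.1 x.2)] at h1
    simpa [A', B'] using congrFun h1 _
  have hdet := congrArg LinearMap.det hAB'
  rw [LinearMap.det_smul, map_mul, map_mul, mul_comm (LinearMap.det B')] at hdet
  have hA0 : LinearMap.det A' ≠ 0 := by
    intro h0
    have := LinearMap.bot_lt_ker_of_det_eq_zero h0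
    obtain ⟨x, hx, hx0⟩ := Submodule.exists_mem_ne_zero_of_ne_bot this.ne'
    apply hx0
    have h1 : A' x = 0 := hx
    have h2 : A x.1 = 0 := congrArg Subtype.val h1
    exact Subtype.ext (hAinj (by rw [h2]; simp))
  have hB0 : LinearMap.det B' ≠ 0 := by
    intro h0
    have := LinearMap.bot_lt_ker_of_det_eq_zero h0
    obtain ⟨x, hx, hx0⟩ := Submodule.exists_mem_ne_zero_of_ne_bot this.ne'
    apply hx0
    have h1 : B' x = 0 := hx
    have h2 : B x.1 = 0 := congrArg Subtype.val h1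
    exact Subtype.ext (hBinj (by rw [h2]; simp))
  have hd : 0 < Module.finrank ℂ W := by
    have : Nontrivial W := ⟨⟨⟨v, (hW v).2 hvz⟩, 0, fun h => hv (congrArg Subtype.val h)⟩⟩
    exact Module.finrank_pos
  refine ⟨n * Module.finrank ℂ W, Nat.mul_pos hn hd, ?_⟩
  rw [pow_mul]
  have h7 := mul_ne_zero hA0 hB0
  exact mul_right_cancel₀ h7 (by rw [← hdet, one_mul])

end Vale.Agent.P002.R2.H238.BG
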