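import Vale.Agent.P002.R2.H238.BGb

/-!
# Tame elements
-/

namespace Vale.Agent.P002.R2.H238.BG

open Matrix Polynomial

variable {r : ℕ}

theorem root_of_vec {M : Matrix (Fin r) (Fin r) ℂ} {z : ℂ} {v : Fin r → ℂ} (hv : v ≠ 0)
    (h : Matrix.toLinAlgEquiv' M v = z • v) : M.charpoly.IsRoot z := by
  rw [IsRoot.def, Matrix.eval_charpoly]
  refine Matrix.exists_mulVec_eq_zero_iff.1 ⟨v, hv, ?_⟩
  rw [Matrix.sub_mulVec, sub_eq_zero]
  rw [Matrix.toLinAlgEquiv'_apply] at h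
  rw [h]
  simp [Matrix.scalar_apply]

theorem pos_of_root {M : Matrix (Fin r) (Fin r) ℂ} {z : ℂ} (hz : M.charpoly.IsRoot z) :
    0 < r := by
  rcases Nat.eq_zero_or_pos r with hr | hr
  · subst hr
    obtain ⟨v, hv, -⟩ := exists_vec hz
    exact absurd (Subsingleton.elim v 0) hv
  · exact hr

/-- some power `≥ 1` of `z` is `1` -/
def Tor (z : ℂ) : Prop := ∃ n : ℕ, 0 < n ∧ z ^ n = 1

theorem Tor.of_pow {z : ℂ} {n : ℕ} (hn : 0 < n) (h : Tor (z ^ n)) : Tor z := by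
  obtain ⟨m, hm, h⟩ := h
  exact ⟨n * m, Nat.mul_pos hn hm, by rw [pow_mul, h]⟩

theorem Tor.pow {z : ℂ} (n : ℕ) (h : Tor z) : Tor (z ^ n) := by
  obtain ⟨m, hm, h⟩ := h
  exact ⟨m, hm, by rw [← pow_mul, mul_comm, pow_mul, h, one_pow]⟩

theorem Tor.mul {y z : ℂ} (hy : Tor y) (hz : Tor z) : Tor (y * z) := by
  obtain ⟨m, hm, h⟩ := hy
  obtain ⟨n, hn, h'⟩ := hz
  exact ⟨m * n, Nat.mul_pos hm hn, by
    rw [mul_pow, pow_mul, h, one_pow, one_mul, mul_comm m, pow_mul, h', one_pow]⟩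

theorem Tor.of_inv {z : ℂ} (h : Tor z⁻¹) : Tor z := by
  obtain ⟨m, hm, h⟩ := h
  exact ⟨m, hm, by rwa [inv_pow, inv_eq_one] at h⟩

/-- all eigenvalues of `M` are roots of unity -/
def QU (M : SpecialLinearGroup (Fin r) ℂ) : Prop := ∀ z, M.1.charpoly.IsRoot z → Tor z

theorem QU.pow {M : SpecialLinearGroup (Fin r) ℂ} (h : QU M) (n : ℕ) : QU (M ^ n) := by
  intro z hz
  rw [val_pow] at hz
  obtain ⟨y, hy, rfl⟩ := (root_pow_iff (pos_of_root hz) M.1 n z).1 hz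
  exact (h y hy).pow n

theorem QU.of_pow {M : SpecialLinearGroup (Fin r) ℂ} {n : ℕ} (hn : 0 < n) (h : QU (M ^ n)) :
    QU M := by
  intro z hz
  refine Tor.of_pow hn (h _ ?_)
  rw [val_pow]
  exact (root_pow_iff (pos_of_root hz) M.1 n _).2 ⟨z, hz, rfl⟩

theorem QU.inv {M : SpecialLinearGroup (Fin r) ℂ} (h : QU M) : QU M⁻¹ :=
  fun _ hz => (h _ (isRoot_inv hz)).of_inv

theorem QU.zpow {M : SpecialLinearGroup (Fin r) ℂ} (h : QU M) (n : ℤ) : QU (M ^ n) := by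
  rcases Int.eq_nat_or_neg n with ⟨m, rfl | rfl⟩
  · rw [zpow_natCast]
    exact h.pow m
  · rw [_root_.zpow_neg, zpow_natCast]
    exact (h.pow m).inv

theorem QU.conj {M : SpecialLinearGroup (Fin r) ℂ} (H : SpecialLinearGroup (Fin r) ℂ)
    (h : QU M) : QU (H * M * H⁻¹) := by
  intro z hz
  rw [charpoly_conj] at hz
  exact h z hz

theorem QU.of_conj {M H : SpecialLinearGroup (Fin r) ℂ} (h : QU (H * M * H⁻¹)) : QU M := by
  intro z hz
  rw [← charpoly_conj H M] at hz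
  exact h z hz

theorem QU.mul {M N : SpecialLinearGroup (Fin r) ℂ} (hM : QU M) (hN : QU N)
    (hc : M * N = N * M) : QU (M * N) := by
  intro z hz
  obtain ⟨v, hv, hvz⟩ := exists_vec hz
  set T := Matrix.toLinAlgEquiv' M.1 with hT
  set S := Matrix.toLinAlgEquiv' N.1 with hS
  have hTS : Matrix.toLinAlgEquiv' (M * N).1 = T * S := by
    rw [val_mul, map_mul]
  have hST : T * S = S * T := by
    rw [hT, hS, ← map_mul, ← map_mul, ← val_mul, hc, val_mul]
  rw [hTS] at hvz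
  let W : Submodule ℂ (Fin r → ℂ) := LinearMap.ker (T * S - z • (1 : Module.End ℂ (Fin r → ℂ)))
  have hW : ∀ x, x ∈ W ↔ (T * S) x = z • x := by
    intro x
    simp [W, sub_eq_zero]
  have hmap : ∀ x ∈ W, T x ∈ W := by
    intro x hx
    rw [hW] at hx ⊢
    have : (T * S) (T x) = T ((T * S) x) := by
      rw [← Module.End.mul_apply, ← Module.End.mul_apply]
      congr 1
      rw [mul_assoc, ← hST]
    rw [this, hx, map_smul]
  have : Nontrivial W := ⟨⟨⟨v, (hW v).2 hvz⟩, 0, fun h => hv (congrArg Subtype.val h)⟩⟩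
  obtain ⟨y, hy⟩ := Module.End.exists_eigenvalue (T.restrict hmap)
  obtain ⟨u, hu⟩ := hy.exists_hasEigenvector
  have hu0 : u.1 ≠ 0 := fun h => hu.2 (Subtype.ext h)
  have hTu : T u.1 = y • u.1 := congrArg Subtype.val hu.apply_eq_smul
  have hy0 : M.1.charpoly.IsRoot y := root_of_vec hu0 hTu
  have hyne := ne_zero_of_root hy0
  have hSu : S u.1 = (z * y⁻¹) • u.1 := by
    have h1 : (T * S) u.1 = z • u.1 := (hW _).1 u.2
    rw [hST, Module.End.mul_apply, hTu, map_smul] at h1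
    have h2 := congrArg (fun x => y⁻¹ • x) h1
    simp only [smul_smul] at h2
    rw [inv_mul_cancel₀ hyne, one_smul, mul_comm] at h2
    exact h2
  have h3 := (hM y hy0).mul (hN _ (root_of_vec hu0 hSu))
  have h4 : y * (z * y⁻¹) = z := by field_simp
  rwa [h4] at h3

end Vale.Agent.P002.R2.H238.BG
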