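import Mathlib

/-!
# Products of cyclic subgroups and tame elements: definitions
-/

namespace Vale.Agent.P002.R2.H238.BG

/-- every element of `N` is a product `g_1 ^ n_1 * g_2 ^ n_2 * ... * g_k ^ n_k`, `n_i ∈ ℤ`
(`k` and the `g_i` fixed) -/
def InCyclicProduct {G : Type} [Group G] (N : Subgroup G) {k : ℕ} (g : Fin k → G) : Prop :=
  ∀ x ∈ N, ∃ n : Fin k → ℤ, x = (List.ofFn fun i => g i ^ n i).prod

/-- The least class of elements of `G` (with given elements `w j`) which contains
* `scaled`: the `g` with `h g^a h⁻¹ = g^b` for some `h` and some natural numbers `a ≠ b`;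
* `heisenberg`: the `g` such that `g^n`, some `n > 0`, is a commutator of two elements which
  commute with `g`;
* `loop`: the `w j`;
* `torus`: the `g` in an abelian subgroup `A` normalised by some `t` such that for each `m > 0` some
  `g^n`, `n > 0`, is of the form `t^m a t^(-m) a⁻¹` with `a` in `A`;

and is closed under roots, powers, conjugation, and products of two commuting elements. -/
inductive IsTame {G : Type} [Group G] {s : ℕ} (w : Fin s → G) : G → Prop
  | scaled (g h : G) (a b : ℕ) (hab : a ≠ b) (e : h * g ^ a * h⁻¹ = g ^ b) : IsTame w g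
  | heisenberg (g x y : G) (n : ℕ) (hn : 0 < n) (hx : x * g = g * x) (hy : y * g = g * y)
      (e : g ^ n = x * y * x⁻¹ * y⁻¹) : IsTame w g
  | loop (j : Fin s) : IsTame w (w j)
  | torus (g t : G) (A : Subgroup G) (hA : ∀ a ∈ A, ∀ b ∈ A, a * b = b * a) (hg : g ∈ A)
      (ht : ∀ a, a ∈ A ↔ t * a * t⁻¹ ∈ A)
      (e : ∀ m : ℕ, 0 < m → ∃ n : ℕ, 0 < n ∧ ∃ a ∈ A, g ^ n = t ^ m * a * (t ^ m)⁻¹ * a⁻¹) :
      IsTame w g
  | root (g : G) (n : ℕ) (hn : 0 < n) (h : IsTame w (g ^ n)) : IsTame w g
  | power (g : G) (n : ℤ) (h : IsTame w g) : IsTame w (g ^ n)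
  | conj (g h : G) (hg : IsTame w g) : IsTame w (h * g * h⁻¹)
  | mul (g h : G) (hg : IsTame w g) (hh : IsTame w h) (e : g * h = h * g) : IsTame w (g * h)

end Vale.Agent.P002.R2.H238.BG
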