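import Vale.Agent.P002.H2.MI
import Vale.Agent.P002.R2.H238.BGc
import Vale.Agent.P002.R2.H238.BGdefs
import Vale.Agent.P002.R2.H955B.CaseD

/-!
# Integrality and density for products of cyclic groups
-/

namespace Vale.Agent.P002.R2.H238.BG

open Matrix NumberField Vale.Agent.P002R.Orb Vale.Agent.P002.H326J Vale.Agent.P002.H2
  Vale.Agent.P002.H252

theorem qu_of_tame {G : Type} [Group G] {r s : ℕ} (w : Fin s → G)
    (f : G →* SpecialLinearGroup (Fin r) ℂ) (hw : ∀ j, QU (f (w j))) {g : G}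
    (hg : IsTame w g) : QU (f g) := by
  induction hg with
  | scaled g h a b hab e =>
    exact case_a (f g) (f h) a b hab (by rw [← map_pow, ← map_mul, ← map_inv, ← map_mul, e,
      map_pow])
  | heisenberg g x y n hn hx hy e =>
    exact case_b (f g) (f x) (f y) n hn (by rw [← map_mul, hx, map_mul])
      (by rw [← map_mul, hy, map_mul])
      (by rw [← map_pow, e, map_mul, map_mul, map_mul, map_inv, map_inv])
  | loop j => exact hw j
  | torus g t A hA hg ht e => exact Vale.Agent.P002.R2.H955B.case_d f A hA t g hg ht e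
  | root g n hn h ih =>
    rw [map_pow] at ih
    exact QU.of_pow hn ih
  | power g n h ih =>
    rw [map_zpow]
    exact ih.zpow n
  | conj g h hg ih =>
    rw [map_mul, map_mul, map_inv]
    exact ih.conj (f h)
  | mul g h hg hh e ih1 ih2 =>
    rw [map_mul]
    exact ih1.mul ih2 (by rw [← map_mul, e, map_mul])

variable {ι : Type} {R : Set (FreeGroup ι)}

theorem qu_w {r s : ℕ} (w : Fin s → FreeGroup ι) (C : Fin s → SpecialLinearGroup (Fin r) ℂ)
    (hC : ∀ j z, IsEigenvalue (C j) z → ∃ n : ℕ, 0 < n ∧ z ^ n = 1)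
    {X : ι → SpecialLinearGroup (Fin r) ℂ} (hX : X ∈ YW R w C)
    (f : PresentedGroup R →* SpecialLinearGroup (Fin r) ℂ)
    (hf : ∀ x, f (PresentedGroup.mk R x) = FreeGroup.lift X x) (j : Fin s) :
    QU (f (PresentedGroup.mk R (w j))) := by
  obtain ⟨c, hc⟩ := isConj_iff.1 (hX.2 j)
  rw [hf, ← hc]
  exact QU.conj c (fun z hz => hC j z hz)

/-- the criterion -/
theorem criterion {G : Type} [Group G] {r k : ℕ} (N : Subgroup G) (g : Fin k → G)
    (hN : InCyclicProduct N g) (f : G →* SpecialLinearGroup (Fin r) ℂ)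
    (hg : ∀ i z, IsEigenvalue (f (g i)) z → IsIntegral ℤ z) (x : G) (hx : x ∈ N) :
    (∀ z, IsEigenvalue (f x) z → IsIntegral ℤ z) ∧ IsIntegral ℤ (f x).1.trace := by
  have h := integral_of_product f g N hN hg x hx
  exact ⟨fun z hz => isIntegral_root h hz, isIntegral_trace h⟩

theorem main_integral [Finite ι] {r s : ℕ} (w : Fin s → FreeGroup ι)
    (C : Fin s → SpecialLinearGroup (Fin r) ℂ)
    (hC : ∀ j z, IsEigenvalue (C j) z → ∃ n : ℕ, 0 < n ∧ z ^ n = 1)
    (N : Subgroup (PresentedGroup R)) {k : ℕ} (g : Fin k → FreeGroup ι)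
    (hN : InCyclicProduct N fun i => PresentedGroup.mk R (g i))
    (O : OrbFamily (PresentedGroup R)) (hO : ∀ j, O.IsPeripheral (PresentedGroup.mk R (w j)))
    (hn : N.Normal) (hNK : N ≤ O.K) (hK : VSMod O.K N)
    (hg : ∀ X ∈ YW R w C, ∀ i z, IsEigenvalue (FreeGroup.lift X (g i)) z → IsIntegral ℤ z) :
    ∃ L : IntermediateField ℚ ℂ, FiniteDimensional ℚ L ∧
      IsDense R L (YW R w C) ∧ IsDenseRep L (YW R w C) := by
  refine uniform_all w C hC fun X hX => isTyped_of_trace w C O hO N hn hNK hK X hX fun x hx => ?_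
  obtain ⟨f, hf⟩ := exists_hom hX
  rw [← hf]
  exact (criterion N _ hN f (fun i z hz => hg X hX i z (by rw [← hf]; exact hz)) _ hx).2

/-- the empty family -/
def noFamily (Γ : Type) [Group Γ] : OrbFamily Γ where
  I := Empty
  fin := inferInstance
  act := { smul := fun _ i => i.elim, one_smul := fun i => i.elim, mul_smul := fun _ _ i => i.elim }
  g := fun i => i.elim
  n := fun i => i.elim
  m := fun i => i.elim
  φ := fun i => i.elim
  range := fun i => i.elim
  conj := fun _ i => i.elim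
  dist := fun i => i.elim

theorem noFamily_K (Γ : Type) [Group Γ] : (noFamily Γ).K = ⊤ := by
  unfold OrbFamily.K
  exact eq_top_iff.2 (le_iInf fun i => i.elim)

theorem noFamily_peripheral (Γ : Type) [Group Γ] (y : Γ) : (noFamily Γ).IsPeripheral y :=
  fun i => i.elim

theorem main [Finite ι] {r s : ℕ} (w : Fin s → FreeGroup ι)
    (C : Fin s → SpecialLinearGroup (Fin r) ℂ)
    (hC : ∀ j z, IsEigenvalue (C j) z → ∃ n : ℕ, 0 < n ∧ z ^ n = 1)
    (N : Subgroup (PresentedGroup R)) (hn : N.Normal) {k : ℕ} (g : Fin k → FreeGroup ι)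
    (hN : InCyclicProduct N fun i => PresentedGroup.mk R (g i))
    (hg : (∀ i, IsTame (fun j => PresentedGroup.mk R (w j)) (PresentedGroup.mk R (g i))) ∨
      ∀ X ∈ YW R w C, ∀ i z, IsEigenvalue (FreeGroup.lift X (g i)) z → IsIntegral ℤ z)
    (hO : (∃ O : OrbFamily (PresentedGroup R), (∀ j, O.IsPeripheral (PresentedGroup.mk R (w j))) ∧
      N ≤ O.K ∧ VSMod O.K N) ∨ VSMod ⊤ N) :
    ∃ L : IntermediateField ℚ ℂ, FiniteDimensional ℚ L ∧
      IsDense R L (YW R w C) ∧ IsDenseRep L (YW R w C) := by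
  have hg' : ∀ X ∈ YW R w C, ∀ i z, IsEigenvalue (FreeGroup.lift X (g i)) z → IsIntegral ℤ z := by
    rcases hg with hg | hg
    · intro X hX i z hz
      obtain ⟨f, hf⟩ := exists_hom hX
      rw [← hf] at hz
      obtain ⟨n, hn, h1⟩ := qu_of_tame (fun j => PresentedGroup.mk R (w j)) f
        (fun j => qu_w w C hC hX f hf j) (hg i) z hz
      exact isIntegral_of_pow_eq_one hn h1
    · exact hg
  rcases hO with ⟨O, hO, hNK, hK⟩ | hK
  · exact main_integral w C hC N g hN O hO hn hNK hK hg'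
  · refine main_integral w C hC N g hN (noFamily _) (fun j => noFamily_peripheral _ _) hn ?_ ?_ hg'
    · rw [noFamily_K]
      exact le_top
    · rw [noFamily_K]
      exact hK

end Vale.Agent.P002.R2.H238.BG
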