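import Vale.Agent.P002.R2.H426.Sp

/-!
# Rational dependence from dependence at algebraic points
-/

namespace Vale.Agent.P002.R2.H238

open Vale.Agent.P002.H2 Vale.Agent.P002.R2.H426

/-- a complex number outside a subfield has another conjugate -/
theorem exists_conj {K : Type} [Field K] [CharZero K] [Algebra K ℂ] (z : ℂ)
    (hz : z ∉ (algebraMap K ℂ).range) :
    ∃ z' : ℂ, z ≠ z' ∧ ∀ q : Polynomial K, Polynomial.aeval z q = 0 ↔ Polynomial.aeval z' q = 0 := by
  by_cases hint : IsIntegral K z
  · have hirr := minpoly.irreducible hint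
    have h2 : 2 ≤ (minpoly K z).natDegree := (minpoly.two_le_natDegree_iff hint).2 hz
    have hcard := Polynomial.card_rootSet_eq_natDegree (K := ℂ) hirr.separable
      (IsAlgClosed.splits _)
    have hroot : z ∈ (minpoly K z).rootSet ℂ := by
      rw [Polynomial.mem_rootSet]
      exact ⟨hirr.ne_zero, minpoly.aeval K z⟩
    obtain ⟨⟨z', hz'⟩, hne⟩ := Fintype.exists_ne_of_one_lt_card
      (by rw [hcard]; exact h2) (⟨z, hroot⟩ : (minpoly K z).rootSet ℂ)
    have hz0 : Polynomial.aeval z' (minpoly K z) = 0 := (Polynomial.mem_rootSet.1 hz').2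
    have hmin : minpoly K z = minpoly K z' :=
      minpoly.eq_of_irreducible_of_monic hirr hz0 (minpoly.monic hint)
    refine ⟨z', fun h => hne (Subtype.ext h.symm), fun q => ?_⟩
    rw [← minpoly.dvd_iff, ← minpoly.dvd_iff, hmin]
  · have htr : Transcendental K z := fun h => hint h.isIntegral
    have hinj := (transcendental_iff_injective (R := K) (x := z)).1 htr
    have hq0 : ∀ q : Polynomial K, Polynomial.aeval z q = 0 → q = 0 := fun q hq =>
      hinj (by rw [hq, map_zero])
    refine ⟨z + 1, fun h => ?_, fun q => ⟨fun h => ?_, fun h => ?_⟩⟩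
    · exact one_ne_zero (left_eq_add.1 h)
    · rw [hq0 q h, map_zero]
    · have h1 : Polynomial.aeval z (q.comp (Polynomial.X + Polynomial.C 1)) = 0 := by
        rw [Polynomial.aeval_comp, map_add, Polynomial.aeval_X, Polynomial.aeval_C, map_one, h]
      have h2 := hq0 _ h1
      have h3 : q = 0 := by
        have h4 : Polynomial.taylor 1 q = 0 := h2
        exact Polynomial.taylor_injective 1 (by rw [h4, map_zero])
      rw [h3, map_zero]

/-- a polynomial whose value is determined by the values of other polynomials at all algebraic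
specializations is a rational function of them -/
theorem rational_of_determined {σ μ : Type} [Finite σ] [Finite μ] (x : σ → ℂ)
    (Y : μ → MvPolynomial σ Kb) (F N₀ : MvPolynomial σ Kb)
    (hN₀ : MvPolynomial.aeval x N₀ ≠ 0)
    (hdet : ∀ x₁ x₂ : σ → Kb, Sp x (emb x₁) → Sp x (emb x₂) →
      MvPolynomial.aeval (emb x₁) N₀ ≠ 0 → MvPolynomial.aeval (emb x₂) N₀ ≠ 0 →
      (∀ m, MvPolynomial.aeval (emb x₁) (Y m) = MvPolynomial.aeval (emb x₂) (Y m)) →
      MvPolynomial.aeval (emb x₁) F = MvPolynomial.aeval (emb x₂) F) :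
    ∃ N M : MvPolynomial μ Kb,
      MvPolynomial.aeval (fun m => MvPolynomial.aeval x (Y m)) N ≠ 0 ∧
      MvPolynomial.aeval (fun m => MvPolynomial.aeval x (Y m)) N * MvPolynomial.aeval x F =
        MvPolynomial.aeval (fun m => MvPolynomial.aeval x (Y m)) M := by
  obtain ⟨y, hy⟩ : ∃ y : μ → ℂ, y = fun m => MvPolynomial.aeval x (Y m) := ⟨_, rfl⟩
  obtain ⟨z, hz⟩ : ∃ z : ℂ, z = MvPolynomial.aeval x F := ⟨_, rfl⟩
  rw [← hy, ← hz]
  by_cases hmem : z ∈ IntermediateField.adjoin Kb (Set.range y)
  · rw [IntermediateField.mem_adjoin_range_iff] at hmem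
    obtain ⟨r, s, hrs⟩ := hmem
    by_cases hs : MvPolynomial.aeval y s = 0
    · refine ⟨1, 0, ?_, ?_⟩
      · rw [map_one]; exact one_ne_zero
      · rw [hrs, hs, div_zero, mul_zero, map_zero]
    · exact ⟨s, r, hs, by rw [hrs, mul_div_cancel₀ _ hs]⟩
  · exfalso
    obtain ⟨z', hzz, hconj⟩ := exists_conj (K := IntermediateField.adjoin Kb (Set.range y)) z (by
      rintro ⟨k, hk⟩
      exact hmem (hk ▸ k.2))
    obtain ⟨w, hw⟩ : ∃ w : ℂ → μ ⊕ Unit → ℂ, w = fun t => Sum.elim y fun _ => t := ⟨_, rfl⟩
    -- relations over `Kb` of `(y, z)` and of `(y, z')` are the same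
    have hrel : ∀ P : MvPolynomial (μ ⊕ Unit) Kb,
        MvPolynomial.aeval (w z) P = 0 ↔ MvPolynomial.aeval (w z') P = 0 := by
      intro P
      obtain ⟨Θ, hΘ⟩ : ∃ Θ : MvPolynomial (μ ⊕ Unit) Kb →ₐ[Kb]
          Polynomial (IntermediateField.adjoin Kb (Set.range y)),
          Θ = MvPolynomial.aeval (Sum.elim (fun m => Polynomial.C
            (⟨y m, IntermediateField.subset_adjoin Kb _ ⟨m, rfl⟩⟩ :
              IntermediateField.adjoin Kb (Set.range y))) fun _ => Polynomial.X) := ⟨_, rfl⟩
      have key : ∀ (t : ℂ) (P : MvPolynomial (μ ⊕ Unit) Kb),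
          Polynomial.aeval t (Θ P) = MvPolynomial.aeval (w t) P := by
        intro t P
        have h1 : ((Polynomial.aeval (R := IntermediateField.adjoin Kb (Set.range y)) t
            ).restrictScalars Kb).comp Θ = MvPolynomial.aeval (w t) := by
          apply MvPolynomial.algHom_ext
          intro m
          rw [AlgHom.comp_apply, hΘ, MvPolynomial.aeval_X, MvPolynomial.aeval_X, hw]
          rcases m with m | m
          · change Polynomial.aeval t (Polynomial.C _) = y m
            rw [Polynomial.aeval_C]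
            rfl
          · change Polynomial.aeval t Polynomial.X = t
            rw [Polynomial.aeval_X]
        exact DFunLike.congr_fun h1 P
      rw [← key, ← key]
      exact hconj _
    obtain ⟨xt, hxt⟩ : ∃ xt : σ ⊕ Unit → ℂ,
        xt = Sum.elim x fun _ => (MvPolynomial.aeval x N₀)⁻¹ := ⟨_, rfl⟩
    obtain ⟨Yt, hYt⟩ : ∃ Yt : μ ⊕ Unit → MvPolynomial (σ ⊕ Unit) Kb,
        Yt = Sum.elim (fun m => MvPolynomial.rename Sum.inl (Y m))
          fun _ => MvPolynomial.rename Sum.inl F := ⟨_, rfl⟩
    have hren : ∀ (u : σ ⊕ Unit → ℂ) (P : MvPolynomial σ Kb),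
        MvPolynomial.aeval u (MvPolynomial.rename Sum.inl P) =
          MvPolynomial.aeval (fun k => u (Sum.inl k)) P := by
      intro u P
      rw [MvPolynomial.aeval_rename]
      rfl
    have hxti : (fun k => xt (Sum.inl k)) = x := by rw [hxt]; rfl
    have hwz : (fun m => MvPolynomial.aeval xt (Yt m)) = w z := by
      funext m
      rw [hYt, hw]
      rcases m with m | m
      · change MvPolynomial.aeval xt (MvPolynomial.rename Sum.inl (Y m)) = y m
        rw [hren, hxti, hy]
      · change MvPolynomial.aeval xt (MvPolynomial.rename Sum.inl F) = z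
        rw [hren, hxti, hz]
    obtain ⟨a, ha, hlift⟩ := lift_spec xt Yt
    rw [hwz] at ha hlift
    have ha' : MvPolynomial.aeval (w z') a ≠ 0 := fun h => ha ((hrel a).2 h)
    -- the triple point
    obtain ⟨c, hc⟩ : ∃ c : μ ⊕ Bool → ℂ,
        c = Sum.elim y fun b => if b then z' else z := ⟨_, rfl⟩
    obtain ⟨r, hr⟩ : ∃ r : Bool → μ ⊕ Unit → μ ⊕ Bool, r = fun b => Sum.map id fun _ => b :=
      ⟨_, rfl⟩
    have hren2 : ∀ (u : μ ⊕ Bool → ℂ) (b : Bool) (P : MvPolynomial (μ ⊕ Unit) Kb),
        MvPolynomial.aeval u (MvPolynomial.rename (r b) P) =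
          MvPolynomial.aeval (fun k => u (r b k)) P := by
      intro u b P
      rw [MvPolynomial.aeval_rename]
      rfl
    have hc0 : (fun k => c (r false k)) = w z := by
      funext m
      rw [hc, hr, hw]
      rcases m with m | m <;> rfl
    have hc1 : (fun k => c (r true k)) = w z' := by
      funext m
      rw [hc, hr, hw]
      rcases m with m | m <;> rfl
    obtain ⟨c₀, hsp, hne⟩ := exists_spec c
      ((MvPolynomial.X (Sum.inr false) - MvPolynomial.X (Sum.inr true)) *
        MvPolynomial.rename (r false) a * MvPolynomial.rename (r true) a) (by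
      rw [map_mul, map_mul, map_sub, MvPolynomial.aeval_X, MvPolynomial.aeval_X, hren2, hren2,
        hc0, hc1, hc]
      exact mul_ne_zero (mul_ne_zero (sub_ne_zero.2 hzz) ha) ha')
    rw [map_mul, map_mul, map_sub, MvPolynomial.aeval_X, MvPolynomial.aeval_X, hren2, hren2] at hne
    have hne1 : emb c₀ (Sum.inr false) ≠ emb c₀ (Sum.inr true) := fun h =>
      hne (by rw [h, sub_self, zero_mul, zero_mul])
    have hnea : ∀ b, MvPolynomial.aeval (emb fun k => c₀ (r b k)) a ≠ 0 := by
      intro b h
      rcases b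
      · exact hne (by
          change _ * MvPolynomial.aeval (emb fun k => c₀ (r false k)) a * _ = 0
          rw [h, mul_zero, zero_mul])
      · exact hne (by
          change _ * MvPolynomial.aeval (emb fun k => c₀ (r true k)) a = 0
          rw [h, mul_zero])
    have hspb : ∀ b, Sp (w z) (emb fun k => c₀ (r b k)) := by
      intro b P hP
      have h1 : MvPolynomial.aeval c (MvPolynomial.rename (r b) P) = 0 := by
        rw [hren2]
        rcases b
        · rw [hc0]; exact hP
        · rw [hc1]; exact (hrel P).1 hP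
      have h2 := hsp _ h1
      rw [hren2] at h2
      exact h2
    -- lifts
    have hl : ∀ b, ∃ x₁ : σ → Kb, Sp x (emb x₁) ∧ MvPolynomial.aeval (emb x₁) N₀ ≠ 0 ∧
        (∀ m, MvPolynomial.aeval (emb x₁) (Y m) = emb c₀ (Sum.inl m)) ∧
        MvPolynomial.aeval (emb x₁) F = emb c₀ (Sum.inr b) := by
      intro b
      obtain ⟨xb, hxb, hval⟩ := hlift _ (hspb b) (hnea b)
      refine ⟨fun k => xb (Sum.inl k), fun P hP => ?_, fun h0 => ?_, fun m => ?_, ?_⟩
      · have h1 := hxb (MvPolynomial.rename Sum.inl P) (by rw [hren, hxti]; exact hP)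
        rw [hren] at h1
        exact h1
      · have h1 := hxb (MvPolynomial.rename Sum.inl N₀ * MvPolynomial.X (Sum.inr ()) - 1) (by
          rw [map_sub, map_mul, hren, hxti, MvPolynomial.aeval_X, map_one, sub_eq_zero, hxt]
          exact mul_inv_cancel₀ hN₀)
        rw [map_sub, map_mul, hren, MvPolynomial.aeval_X, map_one] at h1
        have h2 : MvPolynomial.aeval (fun k => emb xb (Sum.inl k)) N₀ = 0 := h0
        rw [h2, zero_mul, zero_sub, neg_eq_zero] at h1
        exact one_ne_zero h1
      · have h1 := hval (Sum.inl m)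
        rw [hYt] at h1
        change MvPolynomial.aeval (emb xb) (MvPolynomial.rename Sum.inl (Y m)) = _ at h1
        rw [hren, hr] at h1
        exact h1
      · have h1 := hval (Sum.inr ())
        rw [hYt] at h1
        change MvPolynomial.aeval (emb xb) (MvPolynomial.rename Sum.inl F) = _ at h1
        rw [hren, hr] at h1
        exact h1
    obtain ⟨x₁, hx₁, hN₁, hY₁, hF₁⟩ := hl false
    obtain ⟨x₂, hx₂, hN₂, hY₂, hF₂⟩ := hl true
    apply hne1
    rw [← hF₁, ← hF₂]
    exact hdet x₁ x₂ hx₁ hx₂ hN₁ hN₂ fun m => by rw [hY₁, hY₂]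

end Vale.Agent.P002.R2.H238
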